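import Mathlib
import Vale.Agent.P207.H535.Interp
import Vale.Agent.P207.H547.Joint

/-!
# P207, line N4, step 8: the class of cross ratio functions, zoom part

`C z x` is the four point function in the affine coordinates `z` (stable, dual) and `x` (unstable).
-/

open Set Filter Topology Metric
open scoped ContDiff RealInnerProductSpace

noncomputable section

namespace Vale.Agent.P207.H576X

open Vale.Agent.P207.H547.Joint (Bd)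

variable {E : Type} [NormedAddCommGroup E] [InnerProductSpace ℝ E] [FiniteDimensional ℝ E]

/-- `C'` is `C` seen at time `-T` -/
def Zr (a b K T : ℝ) (C C' : E → E → ℝ) : Prop :=
  ∃ L L' : E →L[ℝ] E, (∀ x, L (L' x) = x) ∧ (∀ x, L' (L x) = x) ∧
    ‖L‖ ≤ K * Real.exp (-(a * T)) ∧ ‖L'‖ ≤ K * Real.exp (b * T) ∧
    ∀ z x, ‖z‖ ≤ 1 → ‖x‖ ≤ 1 → ‖ContinuousLinearMap.adjoint L' z‖ ≤ 1 → ‖L x‖ ≤ 1 →
      C z x = C' (ContinuousLinearMap.adjoint L' z) (L x)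

/-- the flip -/
def sw (C : E → E → ℝ) : E → E → ℝ := fun z x => C x z

/-- half of the bounds -/
structure XH (𝒞 : Set (E → E → ℝ)) : Prop where
  d : ∀ s : ℝ, s < 2 → ∃ K, ∀ C ∈ 𝒞, ∀ z x, ‖z‖ ≤ 1 → ‖x‖ ≤ 1 → |C z x - ⟪z, x⟫| ≤ K * ‖z‖ ^ s
  e : ∃ θ > (0 : ℝ), ∃ K, ∃ M : ℕ → ℝ, ∀ C ∈ 𝒞, ∀ z, ‖z‖ ≤ 1 → ∃ Φ : E → ℝ, Bd Φ 0 1 M ∧
    ∀ x ∈ ball (0 : E) 1, |C z x - Φ x| ≤ K * ‖z‖ ^ (2 + θ)

/-- the class of cross ratio functions -/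
structure XCls (𝒞 : Set (E → E → ℝ)) (a b : ℝ) : Prop where
  a_pos : 0 < a
  ab : a ≤ b
  pinch : 2 * b < 3 * a
  zoom : ∃ K : ℝ, 1 ≤ K ∧ (∀ C ∈ 𝒞, ∀ T, 0 ≤ T → ∃ C' ∈ 𝒞, Zr a b K T C C') ∧
    ∀ C ∈ 𝒞, ∀ T, 0 ≤ T → ∃ C' ∈ 𝒞, Zr a b K T C' C
  h : XH 𝒞
  h' : XH (sw '' 𝒞)

theorem Zr.swap {a b K T : ℝ} {C C' : E → E → ℝ} (h : Zr a b K T C C') :
    Zr a b K T (sw C') (sw C) := by
  obtain ⟨L, L', h1, h2, h3, h4, h5⟩ := h
  have ha : ∀ (P Q : E →L[ℝ] E), (∀ x, P (Q x) = x) → ∀ x, ContinuousLinearMap.adjoint Q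
      (ContinuousLinearMap.adjoint P x) = x := by
    intro P Q hPQ x
    refine ext_inner_right ℝ fun y => ?_
    rw [ContinuousLinearMap.adjoint_inner_left, ContinuousLinearMap.adjoint_inner_left, hPQ]
  refine ⟨ContinuousLinearMap.adjoint L, ContinuousLinearMap.adjoint L', ha L' L h2, ha L L' h1,
    by rwa [ContinuousLinearMap.adjoint.norm_map], by rwa [ContinuousLinearMap.adjoint.norm_map],
    ?_⟩
  intro z x hz hx hLz hLx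
  rw [ContinuousLinearMap.adjoint_adjoint] at hLz ⊢
  have e := h5 (ContinuousLinearMap.adjoint L x) (L' z) hLx hLz (by rwa [ha L L' h1 x])
    (by rwa [h1 z])
  rw [ha L L' h1 x, h1 z] at e
  exact e.symm

omit [NormedAddCommGroup E] [InnerProductSpace ℝ E] [FiniteDimensional ℝ E] in
theorem sw_sw (𝒞 : Set (E → E → ℝ)) : sw '' (sw '' 𝒞) = 𝒞 := by
  rw [image_image]
  exact (image_congr fun C _ => rfl).trans (image_id' 𝒞)

theorem XCls.swap {𝒞 : Set (E → E → ℝ)} {a b : ℝ} (h : XCls 𝒞 a b) : XCls (sw '' 𝒞) a b := by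
  obtain ⟨K, hK, h1, h2⟩ := h.zoom
  refine ⟨h.a_pos, h.ab, h.pinch, ⟨K, hK, ?_, ?_⟩, h.h', by rw [sw_sw]; exact h.h⟩
  · rintro _ ⟨C, hC, rfl⟩ T hT
    obtain ⟨C', hC', hz⟩ := h2 C hC T hT
    exact ⟨sw C', ⟨C', hC', rfl⟩, hz.swap⟩
  · rintro _ ⟨C, hC, rfl⟩ T hT
    obtain ⟨C', hC', hz⟩ := h1 C hC T hT
    exact ⟨sw C', ⟨C', hC', rfl⟩, hz.swap⟩

theorem inner_adj {L L' : E →L[ℝ] E} (h2 : ∀ x, L' (L x) = x) (z x : E) :
    ⟪ContinuousLinearMap.adjoint L' z, L x⟫ = ⟪z, x⟫ := by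
  rw [ContinuousLinearMap.adjoint_inner_left, h2]

/-- `C z 0 = 0` and `C 0 x = 0` -/
theorem XCls.zero_left {𝒞 : Set (E → E → ℝ)} {a b : ℝ} (h : XCls 𝒞 a b) {C : E → E → ℝ}
    (hC : C ∈ 𝒞) {x : E} (hx : ‖x‖ ≤ 1) : C 0 x = 0 := by
  obtain ⟨K, hK⟩ := h.h.d 1 (by norm_num)
  have := hK C hC 0 x (by simp) hx
  rw [inner_zero_left, norm_zero, Real.rpow_one, mul_zero, sub_zero] at this
  exact abs_eq_zero.1 (le_antisymm this (abs_nonneg _))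

theorem XCls.zero_right {𝒞 : Set (E → E → ℝ)} {a b : ℝ} (h : XCls 𝒞 a b) {C : E → E → ℝ}
    (hC : C ∈ 𝒞) {z : E} (hz : ‖z‖ ≤ 1) : C z 0 = 0 :=
  h.swap.zero_left (C := sw C) ⟨C, hC, rfl⟩ hz

/-- **(A1)** the bound `|C - ⟨z, x⟩| ≤ K |z|^s |x|^(s a / b)` -/
theorem XCls.a1 {𝒞 : Set (E → E → ℝ)} {a b : ℝ} (h : XCls 𝒞 a b) {s : ℝ} (hs0 : 0 < s)
    (hs : s < 2) : ∃ K, 0 ≤ K ∧ ∀ C ∈ 𝒞, ∀ z x, ‖z‖ ≤ 1 → ‖x‖ ≤ 1 →
      |C z x - ⟪z, x⟫| ≤ K * (‖z‖ ^ s * ‖x‖ ^ (s * a / b)) := by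
  have ha := h.a_pos
  have hb : 0 < b := ha.trans_le h.ab
  obtain ⟨K, hK, h1, h2⟩ := h.zoom
  obtain ⟨Kd0, hKd0⟩ := h.h.d s hs
  set Kd := max Kd0 0 with hKddef
  have hKd : ∀ C ∈ 𝒞, ∀ z x, ‖z‖ ≤ 1 → ‖x‖ ≤ 1 → |C z x - ⟪z, x⟫| ≤ Kd * ‖z‖ ^ s := by
    intro C hC z x hz hx
    exact (hKd0 C hC z x hz hx).trans (by gcongr; exact le_max_left _ _)
  have hKd1 : 0 ≤ Kd := le_max_right _ _
  have hK0 : 0 < K := by linarith
  -- threshold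
  set r0 : ℝ := K ^ (-(b / a + 1)) with hr0
  have hr0pos : 0 < r0 := Real.rpow_pos_of_pos hK0 _
  set q : ℝ := s * a / b with hq
  have hq0 : 0 < q := by positivity
  set K1 : ℝ := Kd * (r0 ^ q)⁻¹ with hK1
  set K2 : ℝ := Kd * (K ^ s * K ^ q) with hK2
  have hK1' : 0 ≤ K1 := by positivity
  have hK2' : 0 ≤ K2 := by positivity
  refine ⟨K1 + K2, by positivity, fun C hC z x hz hx => ?_⟩
  rcases eq_or_ne x 0 with rfl | hx0
  · rw [h.zero_right hC hz, inner_zero_right, sub_zero, abs_zero]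
    positivity
  have hr : 0 < ‖x‖ := norm_pos_iff.2 hx0
  rcases le_or_gt r0 ‖x‖ with hbig | hsmall
  · -- not small
    have e1 : r0 ^ q ≤ ‖x‖ ^ q := Real.rpow_le_rpow hr0pos.le hbig hq0.le
    have e2 : 0 < r0 ^ q := Real.rpow_pos_of_pos hr0pos _
    have e3 : 1 ≤ (r0 ^ q)⁻¹ * ‖x‖ ^ q := by
      rw [inv_mul_eq_div, le_div_iff₀ e2]; linarith
    calc |C z x - ⟪z, x⟫| ≤ Kd * ‖z‖ ^ s := hKd C hC z x hz hx
      _ ≤ (Kd * ‖z‖ ^ s) * ((r0 ^ q)⁻¹ * ‖x‖ ^ q) := le_mul_of_one_le_right (by positivity) e3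
      _ = K1 * (‖z‖ ^ s * ‖x‖ ^ q) := by rw [hK1]; ring
      _ ≤ (K1 + K2) * (‖z‖ ^ s * ‖x‖ ^ q) := by
          apply mul_le_mul_of_nonneg_right (by linarith) (by positivity)
  · -- small: zoom in
    have hKr : K * ‖x‖ ≤ 1 := by
      have e1 : K * r0 ≤ 1 := by
        rw [hr0, ← Real.rpow_one_add' hK0.le (by
          have : 0 < b / a := by positivity
          linarith)]
        apply Real.rpow_le_one_of_one_le_of_nonpos hK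
        have : 0 < b / a := by positivity
        linarith
      exact (mul_le_mul_of_nonneg_left hsmall.le hK0.le).trans e1
    set T : ℝ := -(Real.log (K * ‖x‖)) / b with hT
    have hlog : Real.log (K * ‖x‖) ≤ 0 := Real.log_nonpos (by positivity) hKr
    have hT0 : 0 ≤ T := by rw [hT]; apply div_nonneg (by linarith) hb.le
    obtain ⟨C', hC', L, L', g1, g2, g3, g4, g5⟩ := h2 C hC T hT0
    have hexp : Real.exp (b * T) = (K * ‖x‖)⁻¹ := by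
      rw [hT, mul_div_cancel₀ _ hb.ne', Real.exp_neg, Real.exp_log (by positivity)]
    have hexpa : Real.exp (-(a * T)) = (K * ‖x‖) ^ (a / b) := by
      rw [Real.rpow_def_of_pos (by positivity), hT]
      congr 1
      field_simp
    have hadj : ∀ y, ContinuousLinearMap.adjoint L' (ContinuousLinearMap.adjoint L y) = y := by
      intro y
      refine ext_inner_right ℝ fun w => ?_
      rw [ContinuousLinearMap.adjoint_inner_left, ContinuousLinearMap.adjoint_inner_left, g1]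
    have hx' : ‖L' x‖ ≤ 1 := by
      calc ‖L' x‖ ≤ ‖L'‖ * ‖x‖ := L'.le_opNorm x
        _ ≤ (K * Real.exp (b * T)) * ‖x‖ := by gcongr
        _ = 1 := by rw [hexp]; field_simp
    have hz1 : ‖ContinuousLinearMap.adjoint L z‖ ≤ (K * (K * ‖x‖) ^ (a / b)) * ‖z‖ := by
      calc ‖ContinuousLinearMap.adjoint L z‖ ≤ ‖ContinuousLinearMap.adjoint L‖ * ‖z‖ :=
            (ContinuousLinearMap.adjoint L).le_opNorm z
        _ = ‖L‖ * ‖z‖ := by rw [ContinuousLinearMap.adjoint.norm_map]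
        _ ≤ (K * Real.exp (-(a * T))) * ‖z‖ := by gcongr
        _ = _ := by rw [hexpa]
    have hle : K * (K * ‖x‖) ^ (a / b) ≤ 1 := by
      have e1 : (K * ‖x‖) ^ (a / b) ≤ (K * r0) ^ (a / b) :=
        Real.rpow_le_rpow (by positivity) (mul_le_mul_of_nonneg_left hsmall.le hK0.le)
          (by positivity)
      have e2 : K * r0 = K ^ (-(b / a)) := by
        rw [hr0, ← Real.rpow_one_add' hK0.le (by
          have : 0 < b / a := by positivity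
          linarith)]
        congr 1; ring
      have e3 : (K * r0) ^ (a / b) = K⁻¹ := by
        rw [e2, ← Real.rpow_mul hK0.le, ← Real.rpow_neg_one]
        congr 1; field_simp
      calc K * (K * ‖x‖) ^ (a / b) ≤ K * K⁻¹ := by rw [← e3]; gcongr
        _ = 1 := mul_inv_cancel₀ hK0.ne'
    have hz' : ‖ContinuousLinearMap.adjoint L z‖ ≤ 1 :=
      hz1.trans (mul_le_one₀ hle (norm_nonneg _) hz)
    have key := g5 (ContinuousLinearMap.adjoint L z) (L' x) hz' hx' (by rwa [hadj]) (by rwa [g1])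
    rw [hadj, g1] at key
    have hin : ⟪ContinuousLinearMap.adjoint L z, L' x⟫ = ⟪z, x⟫ := by
      rw [ContinuousLinearMap.adjoint_inner_left, g1]
    rw [← key, ← hin]
    calc |C' (ContinuousLinearMap.adjoint L z) (L' x) - ⟪ContinuousLinearMap.adjoint L z, L' x⟫|
        ≤ Kd * ‖ContinuousLinearMap.adjoint L z‖ ^ s := hKd C' hC' _ _ hz' hx'
      _ ≤ Kd * ((K * (K * ‖x‖) ^ (a / b)) * ‖z‖) ^ s := by gcongr
      _ = K2 * (‖z‖ ^ s * ‖x‖ ^ q) := by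
          rw [Real.mul_rpow (by positivity) (norm_nonneg _), Real.mul_rpow hK0.le (by positivity),
            ← Real.rpow_mul (by positivity), Real.mul_rpow hK0.le (norm_nonneg _), hK2, hq]
          have e : a / b * s = s * a / b := by ring
          rw [e]; ring
      _ ≤ (K1 + K2) * (‖z‖ ^ s * ‖x‖ ^ q) := by
          apply mul_le_mul_of_nonneg_right (by linarith) (by positivity)

omit [FiniteDimensional ℝ E] in
/-- second order Taylor expansion with third derivative bound -/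
theorem taylor3 {g : E → ℝ} {R : ℝ} {M : ℕ → ℝ} (hg : Bd g 0 R M) {N : ℝ}
    (hN : ∀ y ∈ ball (0 : E) R, ‖iteratedFDeriv ℝ 3 g y‖ ≤ N) {y : E} (hy : y ∈ ball (0 : E) R) :
    |g y - (g 0 + fderiv ℝ g 0 y + (1 / 2 : ℝ) * fderiv ℝ (fderiv ℝ g) 0 y y)| ≤ N * ‖y‖ ^ 3 := by
  have hR : 0 < R := (norm_nonneg y).trans_lt (mem_ball_zero_iff.1 hy)
  have h0 : (0 : E) ∈ ball (0 : E) R := mem_ball_self hR
  have hN0 : 0 ≤ N := (norm_nonneg _).trans (hN 0 h0)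
  -- the bound of the first derivative
  have hg' : Bd (fderiv ℝ g) 0 R (fun k => if k = 2 then N else M (k + 1)) := by
    refine ⟨hg.fderiv.1, fun k x hx => ?_⟩
    by_cases hk : k = 2
    · subst hk
      simp only [if_true]
      rw [norm_iteratedFDeriv_fderiv]
      exact hN x hx
    · simp only [hk, if_false]
      exact hg.fderiv.2 k x hx
  set B : E →L[ℝ] E →L[ℝ] ℝ := fderiv ℝ (fderiv ℝ g) 0 with hB
  have hsymm : ∀ v w, B v w = B w v := by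
    have h1 : ContDiffAt ℝ (2 : ℕ) g 0 := hg.at' h0 2
    have := h1.isSymmSndFDerivAt (by simp)
    intro v w
    exact this v w
  have hd : ∀ x ∈ ball (0 : E) R, HasFDerivAt
      (fun x => g x - (g 0 + fderiv ℝ g 0 x + (1 / 2 : ℝ) * B x x))
      (fderiv ℝ g x - (fderiv ℝ g 0 + B x)) x := by
    intro x hx
    have h1 : HasFDerivAt g (fderiv ℝ g x) x := (hg.differentiableAt hx).hasFDerivAt
    have h2 : HasFDerivAt (fun x : E => B x x) (B x + B.flip x) x := by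
      have h5 := (B.hasFDerivAt (x := x)).clm_apply (hasFDerivAt_id x)
      exact h5
    have h6 : B x + B.flip x = (2 : ℝ) • B x := by
      ext v
      simp only [add_apply, ContinuousLinearMap.flip_apply,
        smul_apply, smul_eq_mul]
      rw [hsymm v x]; ring
    have h7 : HasFDerivAt (fun x => g 0 + fderiv ℝ g 0 x + (1 / 2 : ℝ) * B x x)
        (fderiv ℝ g 0 + B x) x := by
      have h8 := (((fderiv ℝ g 0).hasFDerivAt (x := x)).const_add (g 0)).add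
        (h2.const_mul (1 / 2 : ℝ))
      refine h8.congr_fderiv ?_
      rw [h6, smul_smul]; norm_num
    exact h1.sub h7
  have hbd : ∀ x ∈ closedBall (0 : E) ‖y‖, ‖fderiv ℝ g x - (fderiv ℝ g 0 + B x)‖ ≤ N * ‖y‖ ^ 2 := by
    intro x hx
    have hxn : ‖x‖ ≤ ‖y‖ := mem_closedBall_zero_iff.1 hx
    have h1 := hg'.taylor (y := 0) (w := x) (by
      intro w hw
      rw [mem_ball_zero_iff]
      have := mem_closedBall_zero_iff.1 hw
      exact (this.trans hxn).trans_lt (mem_ball_zero_iff.1 hy))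
    simp only [zero_add, if_true] at h1
    rw [← sub_sub]
    refine h1.trans ?_
    rw [mul_assoc, sq]
    gcongr
  have key := (convex_closedBall (0 : E) ‖y‖).norm_image_sub_le_of_norm_hasFDerivWithin_le
    (fun x hx => (hd x (by
      rw [mem_ball_zero_iff]
      exact (mem_closedBall_zero_iff.1 hx).trans_lt (mem_ball_zero_iff.1 hy))).hasFDerivWithinAt)
    hbd (mem_closedBall_self (norm_nonneg _)) (mem_closedBall_zero_iff.2 le_rfl)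
  simp only [map_zero, mul_zero, add_zero, sub_self, sub_zero, Real.norm_eq_abs] at key
  refine key.trans (le_of_eq ?_)
  ring

omit [FiniteDimensional ℝ E] in
/-- a `Bd` function minus a linear function of norm at most `1` -/
theorem Bd.sub_inner {g : E → ℝ} {R : ℝ} {M : ℕ → ℝ} (hg : Bd g 0 R M) {z : E} (hz : ‖z‖ ≤ 1)
    (hR : R ≤ 1) : Bd (fun x => g x - ⟪z, x⟫) 0 R (fun k => M k + 1) := by
  have h1 : Bd (fun x : E => ⟪z, x⟫) 0 R (fun _ => 1) := by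
    refine ⟨(innerSL ℝ z).contDiff.contDiffOn, fun k x hx => ?_⟩
    have hx1 : ‖x‖ ≤ 1 := (mem_ball_zero_iff.1 hx).le.trans hR
    have hL : ‖innerSL ℝ z‖ ≤ 1 := by rw [innerSL_apply_norm]; exact hz
    change ‖iteratedFDeriv ℝ k (innerSL ℝ z) x‖ ≤ 1
    rcases k with _ | _ | k
    · rw [norm_iteratedFDeriv_zero]
      exact ((innerSL ℝ z).le_opNorm x).trans (mul_le_one₀ hL (norm_nonneg _) hx1)
    · rw [norm_iteratedFDeriv_one, (innerSL ℝ z).fderiv]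
      exact hL
    · rw [← norm_iteratedFDeriv_fderiv]
      have : fderiv ℝ (innerSL ℝ z) = fun _ => innerSL ℝ z := by
        funext y; exact (innerSL ℝ z).fderiv
      rw [this, iteratedFDeriv_const_of_ne (by omega)]
      simp
  exact hg.sub h1

omit [FiniteDimensional ℝ E] in
/-- the quadratic approximation of a function which is nearly linear and nearly smooth -/
theorem quad_approx {M : ℕ → ℝ} {ε Ci : ℝ}
    (hint : ∀ (f : E → ℝ) (c : E) (ρ : ℝ), ContDiffOn ℝ ∞ f (ball c 1) →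
      (∀ i, ∀ y ∈ ball c 1, ‖iteratedFDeriv ℝ i f y‖ ≤ M i + 1) → 0 < ρ → ρ ≤ 1 →
      (∀ y ∈ ball c 1, ‖f y‖ ≤ ρ) → ∀ y ∈ ball c (1 / 2),
        ‖iteratedFDeriv ℝ 3 f y‖ ≤ Ci * ρ ^ (1 - ε))
    {f Φ : E → ℝ} {z' : E} (hz' : ‖z'‖ ≤ 1) (hΦ : Bd Φ 0 1 M) {e1 ρ : ℝ}
    (h1 : ∀ y ∈ ball (0 : E) 1, |f y - Φ y| ≤ e1) (hρ0 : 0 < ρ) (hρ1 : ρ ≤ 1)
    (h2 : ∀ y ∈ ball (0 : E) 1, |f y - ⟪z', y⟫| + e1 ≤ ρ) :
    ∃ (α : ℝ) (l : E →L[ℝ] ℝ) (B : E →L[ℝ] E →L[ℝ] ℝ), ∀ y ∈ ball (0 : E) (1 / 2),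
      |f y - (α + l y + B y y)| ≤ e1 + (Ci * ρ ^ (1 - ε)) * ‖y‖ ^ 3 := by
  set g : E → ℝ := fun y => Φ y - ⟪z', y⟫ with hg
  have hgB : Bd g 0 1 (fun k => M k + 1) := Bd.sub_inner hΦ hz' le_rfl
  have hgρ : ∀ y ∈ ball (0 : E) 1, ‖g y‖ ≤ ρ := by
    intro y hy
    have f5 : g y = (f y - ⟪z', y⟫) - (f y - Φ y) := by rw [hg]; ring
    rw [f5, Real.norm_eq_abs]
    have := abs_sub (f y - ⟪z', y⟫) (f y - Φ y)
    have h3 := h1 y hy
    have h4 := h2 y hy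
    linarith
  have hder := hint g 0 ρ hgB.1 hgB.2 hρ0 hρ1 hgρ
  refine ⟨g 0, fderiv ℝ g 0 + innerSL ℝ z', (1 / 2 : ℝ) • fderiv ℝ (fderiv ℝ g) 0,
    fun y hy => ?_⟩
  have hy1 : y ∈ ball (0 : E) 1 := ball_subset_ball (by norm_num) hy
  have hT3 := taylor3 (hgB.mono (by norm_num : (1 / 2 : ℝ) ≤ 1)) hder hy
  have h3 := h1 y hy1
  have e : f y - (g 0 + (fderiv ℝ g 0 + innerSL ℝ z') y +
      ((1 / 2 : ℝ) • fderiv ℝ (fderiv ℝ g) 0) y y) = (f y - Φ y) +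
      (g y - (g 0 + fderiv ℝ g 0 y + (1 / 2 : ℝ) * fderiv ℝ (fderiv ℝ g) 0 y y)) := by
    simp only [add_apply, smul_apply, smul_eq_mul, innerSL_apply_apply]
    rw [hg]; ring
  rw [e]
  exact (abs_add_le _ _).trans (add_le_add h3 hT3)

/-- powers of a small number -/
theorem rpow_bound {w p r K : ℝ} (hw0 : 0 < w) (hw1 : w ≤ 1) (hK : 0 ≤ K) (h : r ≤ p) :
    K * w ^ p ≤ K * w ^ r :=
  mul_le_mul_of_nonneg_left (Real.rpow_le_rpow_of_exponent_ge hw0 hw1 h) hK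

/-- the arithmetic of the zoom -/
theorem zoom_arith {K K1 Ke Ci θ ε κ β γ w y : ℝ} (hK : 1 ≤ K) (hK1 : 0 < K1) (hKe : 0 ≤ Ke)
    (hCi : 0 ≤ Ci) (hw0 : 0 < w) (hw1 : w ≤ 1) (hε : 0 < ε) (hε1 : ε < 1) (hy0 : 0 ≤ y)
    (hy : y ≤ K * w ^ γ)
    (h1 : 2 + κ ≤ β * (2 + θ)) (h2 : 2 + κ ≤ β * ((2 - ε) * (1 - ε)) + 3 * γ) :
    Ke * (K * w ^ β) ^ (2 + θ) + Ci * (K1 * (K * w ^ β) ^ (2 - ε)) ^ (1 - ε) * y ^ 3 ≤
      (Ke * K ^ (2 + θ) + Ci * (K1 * K ^ (2 - ε)) ^ (1 - ε) * K ^ 3) * w ^ (2 + κ) := by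
  have hK0 : 0 < K := by linarith
  have e1 : (K * w ^ β) ^ (2 + θ) = K ^ (2 + θ) * w ^ (β * (2 + θ)) := by
    rw [Real.mul_rpow hK0.le (by positivity), ← Real.rpow_mul hw0.le]
  have e2 : (K1 * (K * w ^ β) ^ (2 - ε)) ^ (1 - ε) =
      (K1 * K ^ (2 - ε)) ^ (1 - ε) * w ^ (β * ((2 - ε) * (1 - ε))) := by
    rw [Real.mul_rpow hK0.le (by positivity), ← mul_assoc,
      Real.mul_rpow (by positivity) (by positivity), ← Real.rpow_mul hw0.le,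
      ← Real.rpow_mul hw0.le]
    congr 2; ring
  have e3 : y ^ 3 ≤ K ^ 3 * w ^ (3 * γ) := by
    calc y ^ 3 ≤ (K * w ^ γ) ^ 3 := by gcongr
      _ = K ^ 3 * w ^ (3 * γ) := by
          rw [mul_pow, ← Real.rpow_natCast (w ^ γ), ← Real.rpow_mul hw0.le]
          congr 2; push_cast; ring
  rw [e1, e2]
  have f1 : Ke * (K ^ (2 + θ) * w ^ (β * (2 + θ))) ≤ Ke * K ^ (2 + θ) * w ^ (2 + κ) := by
    rw [← mul_assoc]
    exact rpow_bound hw0 hw1 (by positivity) h1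
  have f2 : Ci * ((K1 * K ^ (2 - ε)) ^ (1 - ε) * w ^ (β * ((2 - ε) * (1 - ε)))) * y ^ 3 ≤
      Ci * (K1 * K ^ (2 - ε)) ^ (1 - ε) * K ^ 3 * w ^ (2 + κ) := by
    calc Ci * ((K1 * K ^ (2 - ε)) ^ (1 - ε) * w ^ (β * ((2 - ε) * (1 - ε)))) * y ^ 3
        ≤ Ci * ((K1 * K ^ (2 - ε)) ^ (1 - ε) * w ^ (β * ((2 - ε) * (1 - ε)))) *
          (K ^ 3 * w ^ (3 * γ)) := mul_le_mul_of_nonneg_left e3 (by positivity)
      _ = (Ci * (K1 * K ^ (2 - ε)) ^ (1 - ε) * K ^ 3) *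
          w ^ (β * ((2 - ε) * (1 - ε)) + 3 * γ) := by rw [Real.rpow_add hw0]; ring
      _ ≤ _ := rpow_bound hw0 hw1 (by positivity) h2
  linarith

theorem exps {a b c0 θ η ε κ : ℝ} (hb : 0 < b) (hc0 : 0 < c0)
    (hbc0 : b * c0 = θ / (2 * (2 + θ))) (hθ : 0 < θ) (hη : η = c0 * (3 * a - 2 * b))
    (hε : ε = η / 6) (hε0 : 0 < ε) (hκ1 : κ ≤ θ / 2) (hκ2 : κ ≤ η / 2) (hbc1 : b * c0 < 1 / 2) :
    2 + κ ≤ (1 - b * c0) * (2 + θ) ∧
      2 + κ ≤ (1 - b * c0) * ((2 - ε) * (1 - ε)) + 3 * (a * c0) := by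
  constructor
  · have : (1 - b * c0) * (2 + θ) = 2 + θ / 2 := by
      rw [hbc0]; field_simp; ring
    linarith
  · have j1 : 0 ≤ 1 - b * c0 := by linarith
    have j2 : 2 - 3 * ε ≤ (2 - ε) * (1 - ε) := by
      have : (2 - ε) * (1 - ε) = 2 - 3 * ε + ε ^ 2 := by ring
      rw [this]
      have := sq_nonneg ε
      linarith
    have j3 : (1 - b * c0) * (2 - 3 * ε) ≤ (1 - b * c0) * ((2 - ε) * (1 - ε)) :=
      mul_le_mul_of_nonneg_left j2 j1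
    have j4 : (1 - b * c0) * (2 - 3 * ε) + 3 * (a * c0) =
        2 + η - 3 * ε + 3 * ε * (b * c0) := by rw [hη]; ring
    have j5 : 0 ≤ 3 * ε * (b * c0) := by positivity
    have j6 : 3 * ε = η / 2 := by rw [hε]; ring
    linarith

/-- the zoom for small `z` -/
theorem a2_small {C C' : E → E → ℝ} {a b K c0 θ ε κ Ke Kd K1 Ci A q : ℝ} {M : ℕ → ℝ} {z : E}
    (hZ : Zr a b K (-(c0 * Real.log ‖z‖)) C C') (hK : 1 ≤ K) (hz0 : 0 < ‖z‖) (hz : ‖z‖ ≤ 1)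
    (hKd : ∀ z x, ‖z‖ ≤ 1 → ‖x‖ ≤ 1 → |C' z x - ⟪z, x⟫| ≤ Kd * ‖z‖ ^ (2 - ε))
    (hKe : ∀ z, ‖z‖ ≤ 1 → ∃ Φ : E → ℝ, Bd Φ 0 1 M ∧
      ∀ x ∈ ball (0 : E) 1, |C' z x - Φ x| ≤ Ke * ‖z‖ ^ (2 + θ))
    (hint : ∀ (f : E → ℝ) (c : E) (ρ : ℝ), ContDiffOn ℝ ∞ f (ball c 1) →
      (∀ i, ∀ y ∈ ball c 1, ‖iteratedFDeriv ℝ i f y‖ ≤ M i + 1) → 0 < ρ → ρ ≤ 1 →
      (∀ y ∈ ball c 1, ‖f y‖ ≤ ρ) → ∀ y ∈ ball c (1 / 2),
        ‖iteratedFDeriv ℝ 3 f y‖ ≤ Ci * ρ ^ (1 - ε))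
    (hKdn : 0 ≤ Kd) (hKen : 0 ≤ Ke) (hCi : 0 ≤ Ci) (hK1 : K1 = Ke + Kd + 1) (hε0 : 0 < ε)
    (hε1 : ε < 1) (hθ : 0 < θ) (hA1 : 1 ≤ A) (hA2 : K * K1 ≤ A) (hA3 : 4 * K ≤ A)
    (hq1 : q ≤ 1 - b * c0) (hq2 : q ≤ a * c0) (hwq : ‖z‖ ^ q ≤ A⁻¹)
    (i1 : 2 + κ ≤ (1 - b * c0) * (2 + θ))
    (i2 : 2 + κ ≤ (1 - b * c0) * ((2 - ε) * (1 - ε)) + 3 * (a * c0)) :
    ∃ (α : ℝ) (l : E →L[ℝ] ℝ) (B : E →L[ℝ] E →L[ℝ] ℝ), ∀ x, ‖x‖ ≤ 1 →
      |C z x - (α + l x + B x x)| ≤ (Ke * K ^ (2 + θ) +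
        Ci * (K1 * K ^ (2 - ε)) ^ (1 - ε) * K ^ 3) * ‖z‖ ^ (2 + κ) := by
  have hK0 : 0 < K := by linarith
  have hA0 : 0 < A := by linarith
  have hK1pos : 0 < K1 := by rw [hK1]; positivity
  have hK1one : 1 ≤ K1 := by rw [hK1]; linarith
  obtain ⟨L, L', g1, g2, g3, g4, g5⟩ := hZ
  obtain ⟨w, hw⟩ : ∃ w : ℝ, w = ‖z‖ := ⟨_, rfl⟩
  rw [← hw] at hz0 hz hwq g3 g4 ⊢
  have hexpb : Real.exp (b * -(c0 * Real.log w)) = w ^ (-(b * c0)) := by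
    rw [Real.rpow_def_of_pos hz0]; congr 1; ring
  have hexpa : Real.exp (-(a * -(c0 * Real.log w))) = w ^ (a * c0) := by
    rw [Real.rpow_def_of_pos hz0]; congr 1; ring
  rw [hexpb] at g4
  rw [hexpa] at g3
  have hpow : ∀ p : ℝ, q ≤ p → w ^ p ≤ A⁻¹ := fun p hp =>
    (Real.rpow_le_rpow_of_exponent_ge hz0 hz hp).trans hwq
  -- the point `z'`
  obtain ⟨τ, hτ⟩ : ∃ τ : ℝ, τ = K * w ^ (1 - b * c0) := ⟨_, rfl⟩
  have hτ0 : 0 < τ := by rw [hτ]; positivity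
  have hz'n : ‖ContinuousLinearMap.adjoint L' z‖ ≤ τ := by
    calc ‖ContinuousLinearMap.adjoint L' z‖ ≤ ‖ContinuousLinearMap.adjoint L'‖ * ‖z‖ :=
          (ContinuousLinearMap.adjoint L').le_opNorm z
      _ = ‖L'‖ * w := by rw [ContinuousLinearMap.adjoint.norm_map, hw]
      _ ≤ (K * w ^ (-(b * c0))) * w := by gcongr
      _ = τ := by
          rw [hτ, mul_assoc, ← Real.rpow_add_one hz0.ne']
          congr 2; ring
  have hτA : K1 * τ ≤ 1 := by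
    have e1 : w ^ (1 - b * c0) ≤ A⁻¹ := hpow _ hq1
    calc K1 * τ = K * K1 * w ^ (1 - b * c0) := by rw [hτ]; ring
      _ ≤ A * A⁻¹ := by gcongr
      _ = 1 := mul_inv_cancel₀ hA0.ne'
  have hτ1 : τ ≤ 1 := (le_mul_of_one_le_left hτ0.le hK1one).trans hτA
  have hz'1 : ‖ContinuousLinearMap.adjoint L' z‖ ≤ 1 := hz'n.trans hτ1
  have hLq : K * w ^ (a * c0) ≤ 1 / 4 := by
    have e1 : w ^ (a * c0) ≤ A⁻¹ := hpow _ hq2
    have e2 : (4 * K) * w ^ (a * c0) ≤ 1 := by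
      calc (4 * K) * w ^ (a * c0) ≤ A * A⁻¹ := by gcongr
        _ = 1 := mul_inv_cancel₀ hA0.ne'
    linarith
  obtain ⟨Φ, hΦ, hΦC⟩ := hKe _ hz'1
  obtain ⟨ρ, hρ⟩ : ∃ ρ : ℝ, ρ = K1 * τ ^ (2 - ε) := ⟨_, rfl⟩
  have hρ0 : 0 < ρ := by rw [hρ]; positivity
  have hρ1 : ρ ≤ 1 := by
    have e1 : τ ^ (2 - ε) ≤ τ ^ (1 : ℝ) :=
      Real.rpow_le_rpow_of_exponent_ge hτ0 hτ1 (by linarith)
    rw [Real.rpow_one] at e1
    calc ρ ≤ K1 * τ := by rw [hρ]; gcongr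
      _ ≤ 1 := hτA
  have f3 : τ ^ (2 + θ) ≤ τ ^ (2 - ε) :=
    Real.rpow_le_rpow_of_exponent_ge hτ0 hτ1 (by linarith)
  have f4 : ‖ContinuousLinearMap.adjoint L' z‖ ^ (2 - ε) ≤ τ ^ (2 - ε) :=
    Real.rpow_le_rpow (norm_nonneg _) hz'n (by linarith)
  obtain ⟨α, l, B, hq'⟩ := quad_approx hint hz'1 hΦ (f := C' (ContinuousLinearMap.adjoint L' z))
    (e1 := Ke * τ ^ (2 + θ)) (ρ := ρ) (by
      intro y hy
      refine (hΦC y hy).trans ?_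
      gcongr) hρ0 hρ1 (by
      intro y hy
      have hy1 : ‖y‖ ≤ 1 := (mem_ball_zero_iff.1 hy).le
      have f2 := hKd _ y hz'1 hy1
      have f5 : Kd * ‖ContinuousLinearMap.adjoint L' z‖ ^ (2 - ε) ≤ Kd * τ ^ (2 - ε) :=
        mul_le_mul_of_nonneg_left f4 hKdn
      have f6 : Ke * τ ^ (2 + θ) ≤ Ke * τ ^ (2 - ε) := mul_le_mul_of_nonneg_left f3 hKen
      have f7 : 0 ≤ τ ^ (2 - ε) := by positivity
      have f8 : ρ = Ke * τ ^ (2 - ε) + Kd * τ ^ (2 - ε) + τ ^ (2 - ε) := by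
        rw [hρ, hK1]; ring
      linarith)
  refine ⟨α, l.comp L, B.bilinearComp L L, fun x hx => ?_⟩
  have hLx : ‖L x‖ ≤ K * w ^ (a * c0) := by
    calc ‖L x‖ ≤ ‖L‖ * ‖x‖ := L.le_opNorm x
      _ ≤ (K * w ^ (a * c0)) * 1 := by gcongr
      _ = _ := mul_one _
  have hzz : ‖z‖ ≤ 1 := by rw [← hw]; exact hz
  rw [g5 z x hzz hx hz'1 (by linarith)]
  have hmem : L x ∈ ball (0 : E) (1 / 2) := by
    rw [mem_ball_zero_iff]; linarith
  refine (hq' (L x) hmem).trans ?_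
  have fin2 := zoom_arith (K := K) (K1 := K1) (Ke := Ke) (Ci := Ci) (θ := θ) (ε := ε) (κ := κ)
    (β := 1 - b * c0) (γ := a * c0) (w := w) (y := ‖L x‖) hK hK1pos hKen hCi hz0 hz hε0
    hε1 (norm_nonneg _) hLx i1 i2
  rw [← hτ, ← hρ] at fin2
  exact fin2

/-- **(A2)** quadratic in `x` up to `O(|z|^(2+κ))` -/
theorem XCls.a2 {𝒞 : Set (E → E → ℝ)} {a b : ℝ} (h : XCls 𝒞 a b) :
    ∃ κ > (0 : ℝ), ∃ K, 0 ≤ K ∧ ∀ C ∈ 𝒞, ∀ z, ‖z‖ ≤ 1 → ∃ (α : ℝ) (l : E →L[ℝ] ℝ)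
      (B : E →L[ℝ] E →L[ℝ] ℝ), ∀ x, ‖x‖ ≤ 1 → |C z x - (α + l x + B x x)| ≤ K * ‖z‖ ^ (2 + κ) := by
  have ha := h.a_pos
  have hb : 0 < b := ha.trans_le h.ab
  have hp := h.pinch
  obtain ⟨K, hK, h1, h2⟩ := h.zoom
  have hK0 : 0 < K := by linarith
  obtain ⟨θ, hθ, Ke0, M, hM⟩ := h.h.e
  -- constants
  set c0 : ℝ := θ / (2 * b * (2 + θ)) with hc0
  have hc0pos : 0 < c0 := by positivity
  set η : ℝ := c0 * (3 * a - 2 * b) with hη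
  have hηpos : 0 < η := mul_pos hc0pos (by linarith)
  have hbc0 : b * c0 = θ / (2 * (2 + θ)) := by rw [hc0]; field_simp
  have hbc1 : b * c0 < 1 / 2 := by
    rw [hbc0, div_lt_div_iff₀ (by positivity) (by norm_num)]
    linarith
  have hη1 : η < 1 / 2 := by
    have : c0 * (3 * a - 2 * b) ≤ b * c0 := by
      rw [mul_comm b c0]
      exact mul_le_mul_of_nonneg_left (by linarith [h.ab]) hc0pos.le
    linarith
  obtain ⟨ε, hε⟩ : ∃ ε : ℝ, ε = η / 6 := ⟨_, rfl⟩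
  have hεpos : 0 < ε := by rw [hε]; positivity
  have hε1 : ε < 1 / 12 := by rw [hε]; linarith
  obtain ⟨Kd0, hKd0⟩ := h.h.d (2 - ε) (by linarith)
  obtain ⟨Kd, hKdn, hd⟩ : ∃ Kd, 0 ≤ Kd ∧ ∀ C ∈ 𝒞, ∀ z x, ‖z‖ ≤ 1 → ‖x‖ ≤ 1 →
      |C z x - ⟪z, x⟫| ≤ Kd * ‖z‖ ^ (2 - ε) := by
    refine ⟨max Kd0 0, le_max_right _ _, fun C hC z x hz hx => ?_⟩
    exact (hKd0 C hC z x hz hx).trans (by gcongr; exact le_max_left _ _)
  obtain ⟨Ke, hKen, hKe⟩ : ∃ Ke, 0 ≤ Ke ∧ Ke0 ≤ Ke := ⟨max Ke0 0, le_max_right _ _, le_max_left _ _⟩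
  obtain ⟨Ci, hCi, hint⟩ := Vale.Agent.P207.H535.interp (E := E) (F := ℝ) (fun k => M k + 1) 3
    (ε := ε) (r := 1 / 2) (R := 1) hεpos (by norm_num)
  obtain ⟨K1, hK1⟩ : ∃ K1 : ℝ, K1 = Ke + Kd + 1 := ⟨_, rfl⟩
  have hK1pos : 0 < K1 := by rw [hK1]; positivity
  have hK1one : 1 ≤ K1 := by rw [hK1]; linarith
  obtain ⟨κ, hκpos, hκ1, hκ2⟩ : ∃ κ : ℝ, 0 < κ ∧ κ ≤ θ / 2 ∧ κ ≤ η / 2 :=
    ⟨min (θ / 2) (η / 2), lt_min (by positivity) (by positivity), min_le_left _ _, min_le_right _ _⟩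
  obtain ⟨A, hA1, hA2, hA3⟩ : ∃ A : ℝ, 1 ≤ A ∧ K * K1 ≤ A ∧ 4 * K ≤ A :=
    ⟨max 1 (max (K * K1) (4 * K)), le_max_left _ _, (le_max_left _ _).trans (le_max_right _ _),
      (le_max_right _ _).trans (le_max_right _ _)⟩
  have hA0 : 0 < A := by linarith
  obtain ⟨q, hqpos, hq1, hq2⟩ : ∃ q : ℝ, 0 < q ∧ q ≤ 1 / 2 ∧ q ≤ a * c0 :=
    ⟨min (1 / 2) (a * c0), lt_min (by norm_num) (by positivity), min_le_left _ _, min_le_right _ _⟩
  obtain ⟨t0, ht0pos, ht0q⟩ : ∃ t0 : ℝ, 0 < t0 ∧ t0 ^ q = A⁻¹ := by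
    refine ⟨A ^ (-(1 / q)), Real.rpow_pos_of_pos hA0 _, ?_⟩
    rw [← Real.rpow_mul hA0.le, ← Real.rpow_neg_one]
    congr 1; field_simp
  obtain ⟨KA, hKA⟩ : ∃ KA : ℝ, KA = (1 + Kd) * (t0 ^ (2 + κ))⁻¹ := ⟨_, rfl⟩
  obtain ⟨KB, hKB⟩ : ∃ KB : ℝ, KB = Ke * K ^ (2 + θ) +
    Ci * (K1 * K ^ (2 - ε)) ^ (1 - ε) * K ^ 3 := ⟨_, rfl⟩
  have hKAn : 0 ≤ KA := by rw [hKA]; positivity
  have hKBn : 0 ≤ KB := by rw [hKB]; positivity
  refine ⟨κ, hκpos, KA + KB, by positivity, fun C hC z hz => ?_⟩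
  rcases eq_or_ne z 0 with rfl | hz0
  · refine ⟨0, 0, 0, fun x hx => ?_⟩
    rw [h.zero_left hC hx]
    simp only [zero_apply, add_zero, sub_zero, abs_zero]
    positivity
  have ht : 0 < ‖z‖ := norm_pos_iff.2 hz0
  rcases le_or_gt t0 ‖z‖ with hbig | hsmall
  · refine ⟨0, 0, 0, fun x hx => ?_⟩
    simp only [zero_apply, add_zero, sub_zero]
    have e1 : t0 ^ (2 + κ) ≤ ‖z‖ ^ (2 + κ) := Real.rpow_le_rpow ht0pos.le hbig (by positivity)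
    have e2 : 0 < t0 ^ (2 + κ) := Real.rpow_pos_of_pos ht0pos _
    have e3 : 1 ≤ (t0 ^ (2 + κ))⁻¹ * ‖z‖ ^ (2 + κ) := by
      rw [inv_mul_eq_div, le_div_iff₀ e2]; linarith
    have e4 : |C z x| ≤ 1 + Kd := by
      have f1 := hd C hC z x hz hx
      have f2 : |⟪z, x⟫| ≤ 1 := (abs_real_inner_le_norm z x).trans (mul_le_one₀ hz (norm_nonneg _) hx)
      have f3 : ‖z‖ ^ (2 - ε) ≤ 1 := Real.rpow_le_one (norm_nonneg _) hz (by linarith)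
      have f4 : |C z x| ≤ |C z x - ⟪z, x⟫| + |⟪z, x⟫| := by
        have := abs_add_le (C z x - ⟪z, x⟫) ⟪z, x⟫
        rwa [sub_add_cancel] at this
      have f5 : Kd * ‖z‖ ^ (2 - ε) ≤ Kd := mul_le_of_le_one_right hKdn f3
      linarith
    calc |C z x| ≤ 1 + Kd := e4
      _ ≤ (1 + Kd) * ((t0 ^ (2 + κ))⁻¹ * ‖z‖ ^ (2 + κ)) :=
          le_mul_of_one_le_right (by positivity) e3
      _ = KA * ‖z‖ ^ (2 + κ) := by rw [hKA]; ring
      _ ≤ (KA + KB) * ‖z‖ ^ (2 + κ) := by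
          apply mul_le_mul_of_nonneg_right (by linarith) (by positivity)
  · -- small `z`: zoom out by `T = c0 log (1 / |z|)`
    have hlog : Real.log ‖z‖ ≤ 0 := Real.log_nonpos ht.le hz
    have hT0 : 0 ≤ -(c0 * Real.log ‖z‖) := by
      rw [← mul_neg]; exact mul_nonneg hc0pos.le (by linarith)
    obtain ⟨C', hC', hZ⟩ := h1 C hC _ hT0
    have hwq : ‖z‖ ^ q ≤ A⁻¹ := by
      rw [← ht0q]; exact Real.rpow_le_rpow ht.le hsmall.le hqpos.le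
    obtain ⟨i1, i2⟩ := exps hb hc0pos hbc0 hθ hη hε hεpos hκ1 hκ2 hbc1
    obtain ⟨α, l, B, hB⟩ := a2_small (θ := θ) (ε := ε) (κ := κ) (K1 := K1) (A := A) (q := q)
      (Ke := Ke) hZ hK ht hz (hd C' hC') (fun z hz => by
        obtain ⟨Φ, hΦ, hΦC⟩ := hM C' hC' z hz
        exact ⟨Φ, hΦ, fun x hx => (hΦC x hx).trans (by gcongr)⟩) hint hKdn hKen hCi.le hK1 hεpos
      (by linarith) hθ hA1 hA2 hA3 (by linarith) hq2 hwq i1 i2
    rw [← hKB] at hB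
    refine ⟨α, l, B, fun x hx => (hB x hx).trans ?_⟩
    apply mul_le_mul_of_nonneg_right (by linarith) (by positivity)

omit [FiniteDimensional ℝ E] in
/-- the linear part of a function of size `e` on a small ball -/
theorem lin_small {l : E →L[ℝ] ℝ} {B : E →L[ℝ] E →L[ℝ] ℝ} {r e : ℝ} (hr : 0 < r)
    (h : ∀ x, ‖x‖ ≤ r → |l x + B x x| ≤ e) {x : E} (hx : ‖x‖ ≤ 1) : |l x| ≤ e / r := by
  have h1 : ∀ y, ‖y‖ ≤ r → |l y| ≤ e := by
    intro y hy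
    have a1 := h y hy
    have a2 := h (-y) (by rwa [norm_neg])
    simp only [map_neg, neg_apply, neg_neg] at a2
    rw [abs_le] at a1 a2 ⊢
    constructor <;> linarith
  have h2 := h1 (r • x) (by
    rw [norm_smul, Real.norm_eq_abs, abs_of_pos hr]
    exact mul_le_of_le_one_right hr.le hx)
  rw [map_smul, smul_eq_mul, abs_mul, abs_of_pos hr] at h2
  rw [le_div_iff₀ hr, mul_comm]
  exact h2

/-- the output of the zoom part for one function -/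
def Half1 (C : E → E → ℝ) (K κ : ℝ) : Prop :=
  (∀ z x, ‖z‖ ≤ 1 → ‖x‖ ≤ 1 → |C z x - ⟪z, x⟫| ≤ K * ‖z‖ ^ (7 / 4 : ℝ)) ∧
    ∀ z, ‖z‖ ≤ 1 → ∃ q : E →L[ℝ] E →L[ℝ] ℝ, ∀ x, ‖x‖ ≤ 1 →
      |C z x - ⟪z, x⟫ - q x x| ≤ K * ‖z‖ ^ (2 + κ)

omit [FiniteDimensional ℝ E] in
theorem Half1.mono {C : E → E → ℝ} {K κ K' κ' : ℝ} (h : Half1 C K κ) (hK : K ≤ K')
    (hK0 : 0 ≤ K') (hκ : κ' ≤ κ) (hκ0 : 0 < κ') : Half1 C K' κ' := by
  refine ⟨fun z x hz hx => (h.1 z x hz hx).trans (by gcongr), fun z hz => ?_⟩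
  obtain ⟨q, hq⟩ := h.2 z hz
  refine ⟨q, fun x hx => (hq x hx).trans ?_⟩
  rcases eq_or_ne z 0 with rfl | hz0
  · rw [norm_zero, Real.zero_rpow (by linarith), Real.zero_rpow (by linarith), mul_zero, mul_zero]
  · calc K * ‖z‖ ^ (2 + κ) ≤ K' * ‖z‖ ^ (2 + κ) := by gcongr
      _ ≤ K' * ‖z‖ ^ (2 + κ') := rpow_bound (norm_pos_iff.2 hz0) hz hK0 (by linarith)

theorem XCls.half {𝒞 : Set (E → E → ℝ)} {a b : ℝ} (h : XCls 𝒞 a b) :
    ∃ K κ : ℝ, 0 ≤ K ∧ 0 < κ ∧ κ ≤ 1 / 2 ∧ ∀ C ∈ 𝒞, Half1 C K κ := by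
  have ha := h.a_pos
  have hb : 0 < b := ha.trans_le h.ab
  have hp := h.pinch
  obtain ⟨κ, hκ, K2, hK2, hA2⟩ := h.a2
  obtain ⟨ε, hε0, hε1, hε2⟩ : ∃ ε : ℝ, 0 < ε ∧ ε ≤ 1 / 4 ∧ ε ≤ κ / 24 :=
    ⟨min (1 / 4) (κ / 24), lt_min (by norm_num) (by positivity), min_le_left _ _, min_le_right _ _⟩
  obtain ⟨K1, hK1, hA1⟩ := h.a1 (s := 2 - ε) (by linarith) (by linarith)
  obtain ⟨Kd0, hKd0⟩ := h.h.d (7 / 4) (by norm_num)
  obtain ⟨κ', h1, h2, h3⟩ : ∃ κ' : ℝ, 0 < κ' ∧ κ' ≤ κ / 24 ∧ κ' ≤ 1 / 2 :=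
    ⟨min (κ / 24) (1 / 2), lt_min (by positivity) (by norm_num), min_le_left _ _, min_le_right _ _⟩
  refine ⟨max Kd0 0 + (4 * K2 + K1), κ', by positivity, h1, h3, fun C hC => ⟨?_, ?_⟩⟩
  · intro z x hz hx
    refine (hKd0 C hC z x hz hx).trans ?_
    have : Kd0 ≤ max Kd0 0 + (4 * K2 + K1) := by
      have := le_max_left Kd0 0
      linarith [mul_nonneg (by norm_num : (0 : ℝ) ≤ 4) hK2]
    gcongr
  · intro z hz
    obtain ⟨α, l, B, hB⟩ := hA2 C hC z hz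
    refine ⟨B, fun x hx => ?_⟩
    rcases eq_or_ne z 0 with rfl | hz0
    · have e1 := hB x hx
      have e2 := hB (-x) (by rwa [norm_neg])
      have e3 := hB 0 (by simp)
      rw [h.zero_left hC hx, norm_zero, Real.zero_rpow (by linarith), mul_zero] at e1
      rw [h.zero_left hC (by rwa [norm_neg]), norm_zero, Real.zero_rpow (by linarith),
        mul_zero] at e2
      rw [h.zero_left hC (by simp), norm_zero, Real.zero_rpow (by linarith), mul_zero] at e3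
      simp only [map_neg, neg_apply, neg_neg, map_zero, add_zero] at e1 e2 e3
      rw [h.zero_left hC hx, inner_zero_left, norm_zero, Real.zero_rpow (by linarith), mul_zero]
      rw [abs_le] at e1 e2 e3 ⊢
      constructor <;> linarith
    obtain ⟨t, ht⟩ : ∃ t : ℝ, t = ‖z‖ := ⟨_, rfl⟩
    have ht0 : 0 < t := by rw [ht]; exact norm_pos_iff.2 hz0
    have hA1' := hA1 C hC z
    rw [← ht] at hB hA1' hz ⊢
    have hα : |α| ≤ K2 * t ^ (2 + κ) := by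
      have e := hB 0 (by simp)
      rw [h.zero_right hC (by rw [← ht]; exact hz), map_zero, map_zero] at e
      rwa [zero_sub, abs_neg, add_zero, add_zero] at e
    have hlin := lin_small (l := l - innerSL ℝ z) (B := B) (r := t ^ (κ / 2))
      (e := 2 * K2 * t ^ (2 + κ) + K1 * (t ^ (2 - ε) * (t ^ (κ / 2)) ^ ((2 - ε) * a / b)))
      (Real.rpow_pos_of_pos ht0 _) (by
        intro y hy
        have hy1 : ‖y‖ ≤ 1 := hy.trans (Real.rpow_le_one ht0.le hz (by positivity))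
        have e1 := hB y hy1
        have e2 := hA1' y hz hy1
        have e3 : K1 * (t ^ (2 - ε) * ‖y‖ ^ ((2 - ε) * a / b)) ≤
            K1 * (t ^ (2 - ε) * (t ^ (κ / 2)) ^ ((2 - ε) * a / b)) := by
          have : 0 ≤ (2 - ε) * a / b := by
            apply div_nonneg (mul_nonneg (by linarith) ha.le) hb.le
          gcongr
        have e4 : (l - innerSL ℝ z) y + B y y =
            (C z y - ⟪z, y⟫) - (C z y - (α + l y + B y y)) - α := by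
          rw [sub_apply, innerSL_apply_apply]; ring
        rw [e4]
        rw [abs_le] at e1 e2 hα ⊢
        constructor <;> linarith) hx
    have hexp : (2 * K2 * t ^ (2 + κ) + K1 * (t ^ (2 - ε) * (t ^ (κ / 2)) ^ ((2 - ε) * a / b))) /
        t ^ (κ / 2) ≤ (2 * K2 + K1) * t ^ (2 + κ') := by
      rw [div_le_iff₀ (Real.rpow_pos_of_pos ht0 _)]
      have f1 : t ^ (2 + κ) ≤ t ^ (2 + κ') * t ^ (κ / 2) := by
        rw [← Real.rpow_add ht0]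
        exact Real.rpow_le_rpow_of_exponent_ge ht0 hz (by linarith)
      have f2 : t ^ (2 - ε) * (t ^ (κ / 2)) ^ ((2 - ε) * a / b) ≤ t ^ (2 + κ') * t ^ (κ / 2) := by
        rw [← Real.rpow_mul ht0.le, ← Real.rpow_add ht0, ← Real.rpow_add ht0]
        refine Real.rpow_le_rpow_of_exponent_ge ht0 hz ?_
        have g1 : 7 / 6 ≤ (2 - ε) * a / b := by
          rw [le_div_iff₀ hb]
          have : (7 / 4 : ℝ) * a ≤ (2 - ε) * a := mul_le_mul_of_nonneg_right (by linarith) ha.le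
          linarith
        have g2 : κ / 2 * (7 / 6) ≤ κ / 2 * ((2 - ε) * a / b) :=
          mul_le_mul_of_nonneg_left g1 (by positivity)
        linarith
      calc 2 * K2 * t ^ (2 + κ) + K1 * (t ^ (2 - ε) * (t ^ (κ / 2)) ^ ((2 - ε) * a / b))
          ≤ 2 * K2 * (t ^ (2 + κ') * t ^ (κ / 2)) + K1 * (t ^ (2 + κ') * t ^ (κ / 2)) := by
            gcongr
        _ = _ := by ring
    have hk : t ^ (2 + κ) ≤ t ^ (2 + κ') :=
      Real.rpow_le_rpow_of_exponent_ge ht0 hz (by linarith)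
    have hk2 : K2 * t ^ (2 + κ) ≤ K2 * t ^ (2 + κ') := by gcongr
    have e1 := hB x hx
    have e5 : C z x - ⟪z, x⟫ - B x x = (C z x - (α + l x + B x x)) + α + (l - innerSL ℝ z) x := by
      rw [sub_apply, innerSL_apply_apply]; ring
    have hlin2 := hlin.trans hexp
    have hfin : (max Kd0 0 + (4 * K2 + K1)) * t ^ (2 + κ') =
        max Kd0 0 * t ^ (2 + κ') + 2 * (K2 * t ^ (2 + κ')) + (2 * K2 + K1) * t ^ (2 + κ') := by ring
    have hpos : 0 ≤ max Kd0 0 * t ^ (2 + κ') := by positivity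
    rw [e5, hfin]
    rw [abs_le] at e1 hα hlin2 ⊢
    constructor <;> linarith

/-- **output of the zoom part** -/
theorem XCls.out {𝒞 : Set (E → E → ℝ)} {a b : ℝ} (h : XCls 𝒞 a b) :
    ∃ K κ : ℝ, 0 ≤ K ∧ 0 < κ ∧ κ ≤ 1 / 2 ∧ ∀ C ∈ 𝒞, Half1 C K κ ∧ Half1 (sw C) K κ := by
  obtain ⟨K, κ, h1, h2, h3, h4⟩ := h.half
  obtain ⟨K', κ', h1', h2', h3', h4'⟩ := h.swap.half
  refine ⟨max K K', min κ κ', le_max_of_le_left h1, lt_min h2 h2', (min_le_left _ _).trans h3,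
    fun C hC => ⟨(h4 C hC).mono (le_max_left _ _) (le_max_of_le_left h1) (min_le_left _ _)
      (lt_min h2 h2'), (h4' (sw C) ⟨C, hC, rfl⟩).mono (le_max_right _ _) (le_max_of_le_left h1)
      (min_le_right _ _) (lt_min h2 h2')⟩⟩

end Vale.Agent.P207.H576X
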